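import Mathlib
import Vale.Agent.Lib.P243.Cap.Param
import Vale.Agent.Lib.P243.Cap.Fiber

/-!
P243 (C), step D2: lower bound for the area of the superlevel sets of the chord-length function of a
centrally symmetric body, in coordinates where the base point is `(0, a)`.

Let `P = Prod.fst '' K`, `ℓ = fib K (0,a)`.
* `fib K (0,-a) = ℓ` by symmetry, hence `(0, σ a) ∈ lev K ℓ` for `|σ| ≤ 1` (`lev_comb`), hence
  `((1-t) x, (1-t) p + t σ a) ∈ lev K (t ℓ)` for `(x,p) ∈ P` (`lev_comb` with `lev K 0 = P`).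
* every vertical chord of `P` has length `c` with `g c ≤ 2 a`: if `(x,p), (x,q) ∈ P` then
  `(0,(p-q)/2) ∈ P` (symmetry + convexity), so `g (p-q)/2 ≤ a`.
* so the section of `lev K (t ℓ)` at `(1-t) x` has length `≥ (1-t) c + 2 t a ≥ (1 - t + t g) c`.
* integrate in `x` (substitution `x' = (1-t) x`).
-/

namespace Vale.Agent.Lib.P243.Symm

open MeasureTheory Set Vale.Agent.Lib.P243.Cap

variable {K : Set ((ℝ × ℝ) × ℝ)}

theorem fib_neg (hs : ∀ x ∈ K, -x ∈ K) (y : ℝ × ℝ) : fib K (-y) = fib K y := by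
  unfold fib
  have h : {z : ℝ | (-y, z) ∈ K} = Neg.neg ⁻¹' {z : ℝ | (y, z) ∈ K} := by
    ext z
    simp only [Set.mem_ofPred_eq, mem_preimage]
    constructor
    · intro hz
      have := hs _ hz
      simpa using this
    · intro hz
      have := hs _ hz
      simpa using this
  rw [h, Measure.measure_preimage_neg]

/-- The shadow of a symmetric set is symmetric. -/
theorem neg_mem_shadow (hs : ∀ x ∈ K, -x ∈ K) {y : ℝ × ℝ} (hy : y ∈ Prod.fst '' K) :
    -y ∈ Prod.fst '' K := by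
  obtain ⟨x, hx, rfl⟩ := hy
  exact ⟨-x, hs x hx, rfl⟩

theorem mem_lev_axis (hK : Convex ℝ K) (hc : IsCompact K) (hs : ∀ x ∈ K, -x ∈ K) {a : ℝ}
    (hy : ((0 : ℝ), a) ∈ Prod.fst '' K) {σ : ℝ} (hσ : |σ| ≤ 1) :
    ((0 : ℝ), σ * a) ∈ lev K (fib K ((0 : ℝ), a)) := by
  have h1 : ((0 : ℝ), a) ∈ lev K (fib K ((0 : ℝ), a)) := ⟨hy, le_rfl⟩
  have hneg : -((0 : ℝ), a) = ((0 : ℝ), -a) := by simp
  have h2 : ((0 : ℝ), -a) ∈ lev K (fib K ((0 : ℝ), a)) := by
    refine ⟨?_, ?_⟩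
    · rw [← hneg]
      exact neg_mem_shadow hs hy
    · rw [← hneg, fib_neg hs]
  obtain ⟨hσ1, hσ2⟩ := abs_le.1 hσ
  have h3 := lev_comb hK hc (l := (1 + σ) / 2) (by linarith) (by linarith) h2 h1
  have e1 : (1 - (1 + σ) / 2) • ((0 : ℝ), -a) + ((1 + σ) / 2) • ((0 : ℝ), a) = ((0 : ℝ), σ * a) := by
    ext
    · simp
    · simp only [Prod.smul_mk, smul_eq_mul, Prod.mk_add_mk]
      ring
  have e2 : (1 - (1 + σ) / 2) * fib K ((0 : ℝ), a) + (1 + σ) / 2 * fib K ((0 : ℝ), a)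
      = fib K ((0 : ℝ), a) := by ring
  rwa [e1, e2] at h3

theorem mem_lev_comb (hK : Convex ℝ K) (hc : IsCompact K) (hs : ∀ x ∈ K, -x ∈ K) {a : ℝ}
    (hy : ((0 : ℝ), a) ∈ Prod.fst '' K) {t σ x p : ℝ} (ht0 : 0 ≤ t) (ht1 : t ≤ 1)
    (hσ : |σ| ≤ 1) (hp : (x, p) ∈ Prod.fst '' K) :
    ((1 - t) * x, (1 - t) * p + t * (σ * a)) ∈ lev K (t * fib K ((0 : ℝ), a)) := by
  have h1 : (x, p) ∈ lev K 0 := by rwa [lev_zero]
  have h2 := mem_lev_axis hK hc hs hy hσ
  have h3 := lev_comb hK hc ht0 ht1 h1 h2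
  have e1 : (1 - t) • (x, p) + t • ((0 : ℝ), σ * a)
      = ((1 - t) * x, (1 - t) * p + t * (σ * a)) := by
    ext <;> simp
  have e2 : (1 - t) * 0 + t * fib K ((0 : ℝ), a) = t * fib K ((0 : ℝ), a) := by ring
  rwa [e1, e2] at h3

theorem convex_sec {S : Set (ℝ × ℝ)} (hS : Convex ℝ S) (x : ℝ) : Convex ℝ (sec S x) := by
  intro p hp q hq α β hα hβ hαβ
  have h := hS hp hq hα hβ hαβ
  have e : α • (x, p) + β • (x, q) = (x, α • p + β • q) := by
    ext
    · simp only [Prod.smul_mk, smul_eq_mul, Prod.mk_add_mk]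
      rw [← add_mul, hαβ, one_mul]
    · simp
  rw [e] at h
  exact h

theorem isCompact_sec {S : Set (ℝ × ℝ)} (hS : IsCompact S) (x : ℝ) : IsCompact (sec S x) := by
  have hcl : IsClosed (sec S x) :=
    hS.isClosed.preimage (Continuous.prodMk_right x)
  refine (hS.image continuous_snd).of_isClosed_subset hcl ?_
  intro y hy
  exact ⟨(x, y), hy, rfl⟩

/-- Half the difference of two points of a vertical chord of the shadow. -/
theorem half_diff_mem (hK : Convex ℝ K) (hs : ∀ x ∈ K, -x ∈ K) {x p q : ℝ}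
    (hp : (x, p) ∈ Prod.fst '' K) (hq : (x, q) ∈ Prod.fst '' K) :
    ((0 : ℝ), (p - q) / 2) ∈ Prod.fst '' K := by
  have hP : Convex ℝ (Prod.fst '' K) := hK.linear_image (LinearMap.fst ℝ (ℝ × ℝ) ℝ)
  have hq' := neg_mem_shadow hs hq
  have h := hP hp hq' (a := 1 / 2) (b := 1 / 2) (by norm_num) (by norm_num) (by norm_num)
  have e : (1 / 2 : ℝ) • (x, p) + (1 / 2 : ℝ) • (-(x, q)) = ((0 : ℝ), (p - q) / 2) := by
    ext
    · simp
    · simp only [Prod.neg_mk, Prod.smul_mk, smul_eq_mul, Prod.mk_add_mk]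
      ring
  rwa [e] at h

theorem sec_lev_ge (hK : Convex ℝ K) (hc : IsCompact K) (hs : ∀ x ∈ K, -x ∈ K) {a g : ℝ}
    (ha : 0 ≤ a) (hg0 : 0 ≤ g) (hy : ((0 : ℝ), a) ∈ Prod.fst '' K)
    (hgb : ∀ b : ℝ, ((0 : ℝ), b) ∈ Prod.fst '' K → g * b ≤ a)
    {t : ℝ} (ht0 : 0 ≤ t) (ht1 : t ≤ 1) (x : ℝ) :
    ENNReal.ofReal (1 - t + t * g) * volume (sec (Prod.fst '' K) x) ≤
      volume (sec (lev K (t * fib K ((0 : ℝ), a))) ((1 - t) * x)) := by
  set S := sec (Prod.fst '' K) x with hS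
  rcases S.eq_empty_or_nonempty with hemp | hne
  · rw [hemp]
    simp
  have hScomp : IsCompact S := isCompact_sec (hc.image continuous_fst) x
  set p := sSup S with hp
  set q := sInf S with hq
  have hpS : p ∈ S := hScomp.sSup_mem hne
  have hqS : q ∈ S := hScomp.sInf_mem hne
  have hsub : S ⊆ Icc q p := fun z hz =>
    ⟨csInf_le hScomp.bddBelow hz, le_csSup hScomp.bddAbove hz⟩
  have hqp : q ≤ p := (hsub hpS).1
  have hvolS : volume S ≤ ENNReal.ofReal (p - q) := by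
    calc volume S ≤ volume (Icc q p) := measure_mono hsub
      _ = ENNReal.ofReal (p - q) := Real.volume_Icc
  have hg : g * ((p - q) / 2) ≤ a := hgb _ (half_diff_mem hK hs hpS hqS)
  set T := sec (lev K (t * fib K ((0 : ℝ), a))) ((1 - t) * x) with hT
  have hTconv : Convex ℝ T := convex_sec (convex_lev hK hc _) _
  have h1 : (1 - t) * p + t * (1 * a) ∈ T :=
    mem_lev_comb hK hc hs hy ht0 ht1 (by simp) hpS
  have h2 : (1 - t) * q + t * (-1 * a) ∈ T :=
    mem_lev_comb hK hc hs hy ht0 ht1 (by simp) hqS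
  have hIcc : Icc ((1 - t) * q + t * (-1 * a)) ((1 - t) * p + t * (1 * a)) ⊆ T :=
    hTconv.ordConnected.out h2 h1
  have hvolT : ENNReal.ofReal (((1 - t) * p + t * (1 * a)) - ((1 - t) * q + t * (-1 * a)))
      ≤ volume T := by
    rw [← Real.volume_Icc]
    exact measure_mono hIcc
  have hk : 0 ≤ 1 - t + t * g := by
    have : 0 ≤ t * g := mul_nonneg ht0 hg0
    linarith
  calc ENNReal.ofReal (1 - t + t * g) * volume S
      ≤ ENNReal.ofReal (1 - t + t * g) * ENNReal.ofReal (p - q) := by gcongr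
    _ = ENNReal.ofReal ((1 - t + t * g) * (p - q)) := (ENNReal.ofReal_mul hk).symm
    _ ≤ ENNReal.ofReal (((1 - t) * p + t * (1 * a)) - ((1 - t) * q + t * (-1 * a))) := by
        refine ENNReal.ofReal_le_ofReal ?_
        have : t * (g * ((p - q) / 2)) ≤ t * a := mul_le_mul_of_nonneg_left hg ht0
        nlinarith
    _ ≤ volume T := hvolT

/-- Fubini for planar sets. -/
theorem volume_eq_lintegral_sec {S : Set (ℝ × ℝ)} (hS : MeasurableSet S) :
    volume S = ∫⁻ x, volume (sec S x) := by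
  rw [Measure.volume_eq_prod, Measure.prod_apply hS]
  rfl

/-- Scaling of the variable. -/
theorem lintegral_scale {f : ℝ → ENNReal} (hf : Measurable f) {c : ℝ} (hc : 0 < c) :
    ∫⁻ x, f x = ENNReal.ofReal c * ∫⁻ x, f (c * x) := by
  have h1 : ∫⁻ x, f (c * x) = ∫⁻ x, f x ∂(Measure.map (c * ·) volume) :=
    (lintegral_map hf (measurable_const_mul c)).symm
  rw [h1, Real.map_volume_mul_left hc.ne', lintegral_smul_measure, smul_eq_mul, ← mul_assoc,
    ← ENNReal.ofReal_mul hc.le, abs_of_pos (inv_pos.2 hc), mul_inv_cancel₀ hc.ne',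
    ENNReal.ofReal_one, one_mul]

theorem area_lev_ge (hK : Convex ℝ K) (hc : IsCompact K) (hs : ∀ x ∈ K, -x ∈ K) {a g : ℝ}
    (ha : 0 ≤ a) (hg0 : 0 ≤ g) (hy : ((0 : ℝ), a) ∈ Prod.fst '' K)
    (hgb : ∀ b : ℝ, ((0 : ℝ), b) ∈ Prod.fst '' K → g * b ≤ a)
    {t : ℝ} (ht0 : 0 ≤ t) (ht1 : t ≤ 1) :
    ENNReal.ofReal ((1 - t) * (1 - t + t * g)) * volume (Prod.fst '' K) ≤
      volume (lev K (t * fib K ((0 : ℝ), a))) := by
  rcases ht1.eq_or_lt with rfl | ht1'
  · simp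
  have hpos : 0 < 1 - t := by linarith
  have hPm : MeasurableSet (Prod.fst '' K) := (hc.image continuous_fst).measurableSet
  have hLm : MeasurableSet (lev K (t * fib K ((0 : ℝ), a))) := measurableSet_lev hc _
  have hmeas : Measurable fun x => volume (sec (lev K (t * fib K ((0 : ℝ), a))) x) :=
    measurable_measure_prodMk_left hLm
  rw [volume_eq_lintegral_sec hLm, lintegral_scale hmeas hpos, volume_eq_lintegral_sec hPm,
    ENNReal.ofReal_mul hpos.le, mul_assoc]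
  refine mul_le_mul_right ?_ _
  rw [← lintegral_const_mul' _ _ ENNReal.ofReal_ne_top]
  exact lintegral_mono fun x => sec_lev_ge hK hc hs ha hg0 hy hgb ht0 ht1 x

end Vale.Agent.Lib.P243.Symm
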