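import Mathlib
import Vale.Agent.Lib.P243.Cap.CaptureCoord
import Vale.Agent.Lib.P243.Symm.LevSec

/-!
P243 (C), step D3: the key volume bound in special coordinates.
`vol K = ∫_{s>0} area (lev K s) ds ≥ ℓ ∫_0^1 area (lev K (t ℓ)) dt ≥ ℓ A ∫_0^1 (1-t)(1-t+tg) dt
  = ℓ A (2+g)/6` (`volume_eq_lintegral_fib`, `layer_cake` with `s0 = 0`, `area_lev_ge`).
-/

namespace Vale.Agent.Lib.P243.Symm

open MeasureTheory Set Vale.Agent.Lib.P243.Cap

variable {K : Set ((ℝ × ℝ) × ℝ)}

/-- the elementary integral `∫_0^ℓ (1 - s/ℓ)(1 - s/ℓ + (s/ℓ) g) ds = ℓ (2+g)/6`. -/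
theorem integral_profile {l : ℝ} (hl : 0 < l) (g : ℝ) :
    ∫ s in (0 : ℝ)..l, (1 - s / l) * (1 - s / l + s / l * g) = l * (2 + g) / 6 := by
  have e : ∀ s : ℝ, (1 - s / l) * (1 - s / l + s / l * g)
      = 1 + ((g - 2) / l) * s + ((1 - g) / l ^ 2) * s ^ 2 := by
    intro s
    field_simp
    ring
  simp only [e]
  rw [intervalIntegral.integral_add, intervalIntegral.integral_add,
    intervalIntegral.integral_const_mul, intervalIntegral.integral_const_mul, integral_id,
    integral_pow, intervalIntegral.integral_const]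
  · simp only [smul_eq_mul]
    field_simp
    ring
  · exact intervalIntegrable_const
  · exact (continuous_const.mul continuous_id).intervalIntegrable _ _
  · exact (continuous_const.add (continuous_const.mul continuous_id)).intervalIntegrable _ _
  · exact (continuous_const.mul (continuous_id.pow 2)).intervalIntegrable _ _

theorem lintegral_profile {l : ℝ} (hl : 0 < l) {g : ℝ} (hg0 : 0 ≤ g) :
    ∫⁻ s in Ioc (0 : ℝ) l, ENNReal.ofReal ((1 - s / l) * (1 - s / l + s / l * g))
      = ENNReal.ofReal (l * (2 + g) / 6) := by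
  rw [← integral_profile hl g, intervalIntegral.integral_of_le hl.le]
  refine (ofReal_integral_eq_lintegral_ofReal ?_ ?_).symm
  · have hcont : Continuous fun s : ℝ => (1 - s / l) * (1 - s / l + s / l * g) := by fun_prop
    have h : IntervalIntegrable (fun s : ℝ => (1 - s / l) * (1 - s / l + s / l * g)) volume 0 l :=
      hcont.intervalIntegrable 0 l
    rwa [intervalIntegrable_iff_integrableOn_Ioc_of_le hl.le] at h
  · refine ae_restrict_of_forall_mem measurableSet_Ioc fun s hs => ?_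
    have h1 : 0 ≤ s / l := div_nonneg hs.1.le hl.le
    have h2 : s / l ≤ 1 := (div_le_one hl).2 hs.2
    have h3 : 0 ≤ 1 - s / l := by linarith
    have h4 : 0 ≤ s / l * g := mul_nonneg h1 hg0
    exact mul_nonneg h3 (by linarith)

theorem key_special (hK : Convex ℝ K) (hc : IsCompact K) (hs : ∀ x ∈ K, -x ∈ K) {a g : ℝ}
    (ha : 0 ≤ a) (hg0 : 0 ≤ g) (hy : ((0 : ℝ), a) ∈ Prod.fst '' K)
    (hgb : ∀ b : ℝ, ((0 : ℝ), b) ∈ Prod.fst '' K → g * b ≤ a) :
    ENNReal.ofReal (fib K ((0 : ℝ), a) * (2 + g) / 6) * volume (Prod.fst '' K) ≤ volume K := by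
  obtain ⟨l, hl⟩ : ∃ l : ℝ, l = fib K ((0 : ℝ), a) := ⟨_, rfl⟩
  rw [← hl]
  have hl0 : 0 ≤ l := hl ▸ fib_nonneg _
  rcases hl0.eq_or_lt with h0 | hpos
  · rw [← h0]
    simp
  have hvol : volume K = ∫⁻ t in Ioi (0 : ℝ), volume (lev K t) := by
    rw [volume_eq_lintegral_fib hc, ← layer_cake hc 0 le_rfl]
    simp only [sub_zero]
  rw [hvol]
  calc ENNReal.ofReal (l * (2 + g) / 6) * volume (Prod.fst '' K)
      = (∫⁻ s in Ioc (0 : ℝ) l, ENNReal.ofReal ((1 - s / l) * (1 - s / l + s / l * g)))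
          * volume (Prod.fst '' K) := by rw [lintegral_profile hpos hg0]
    _ = ∫⁻ s in Ioc (0 : ℝ) l, ENNReal.ofReal ((1 - s / l) * (1 - s / l + s / l * g))
          * volume (Prod.fst '' K) := by
        rw [lintegral_mul_const]
        exact ENNReal.measurable_ofReal.comp (by fun_prop)
    _ ≤ ∫⁻ s in Ioc (0 : ℝ) l, volume (lev K s) := by
        refine setLIntegral_mono' measurableSet_Ioc fun s hs' => ?_
        have h1 : 0 ≤ s / l := div_nonneg hs'.1.le hpos.le
        have h2 : s / l ≤ 1 := (div_le_one hpos).2 hs'.2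
        have h3 := area_lev_ge hK hc hs ha hg0 hy hgb h1 h2
        rw [← hl, div_mul_cancel₀ s hpos.ne'] at h3
        exact h3
    _ ≤ ∫⁻ t in Ioi (0 : ℝ), volume (lev K t) := lintegral_mono_set Ioc_subset_Ioi_self

end Vale.Agent.Lib.P243.Symm
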