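import Mathlib
import Vale.Agent.Lib.P243.Symm.KeySpecial

/-!
P243 (C), step D4: the key volume bound for an arbitrary base point `y`, by a rotation of the first
factor `ℝ × ℝ` taking `y` to `(0, |y|)` (explicit linear map of determinant one:
`(x₁,x₂) ↦ ((y₂ x₁ - y₁ x₂)/n, (y₁ x₁ + y₂ x₂)/n)`, `n = √(y₁² + y₂²)`), times the identity on the last
factor.  It preserves volumes (`Measure.addHaar_image_linearMap`), convexity, compactness, symmetry and
chord lengths.  For `y = 0` the hypothesis forces `g = 0` and `key_special` applies with `a = 0`.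
-/

namespace Vale.Agent.Lib.P243.Symm

open MeasureTheory Set Vale.Agent.Lib.P243.Cap

variable {K : Set ((ℝ × ℝ) × ℝ)}

/-- the plane rotation with cosine `c` and sine `s` -/
noncomputable def rot (c s : ℝ) : (ℝ × ℝ) →ₗ[ℝ] (ℝ × ℝ) :=
  Matrix.toLin (Module.Basis.finTwoProd ℝ) (Module.Basis.finTwoProd ℝ) !![c, -s; s, c]

theorem rot_apply (c s : ℝ) (x : ℝ × ℝ) :
    rot c s x = (c * x.1 + -s * x.2, s * x.1 + c * x.2) :=
  Matrix.toLin_finTwoProd_apply _ _ _ _ _

theorem det_rot (c s : ℝ) : LinearMap.det (rot c s) = c ^ 2 + s ^ 2 := by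
  unfold rot
  rw [LinearMap.det_toLin, Matrix.det_fin_two_of]
  ring

theorem rot_inv {c s : ℝ} (h : c ^ 2 + s ^ 2 = 1) (x : ℝ × ℝ) : rot c (-s) (rot c s x) = x := by
  rw [rot_apply, rot_apply]
  ext
  · simp only
    have : c * (c * x.1 + -s * x.2) + - -s * (s * x.1 + c * x.2) = (c ^ 2 + s ^ 2) * x.1 := by ring
    rw [this, h, one_mul]
  · simp only
    have : -s * (c * x.1 + -s * x.2) + c * (s * x.1 + c * x.2) = (c ^ 2 + s ^ 2) * x.2 := by ring
    rw [this, h, one_mul]

theorem rot_injective {c s : ℝ} (h : c ^ 2 + s ^ 2 = 1) : Function.Injective (rot c s) :=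
  Function.LeftInverse.injective (rot_inv h)

/-- the rotation of the first factor -/
noncomputable def rot3 (c s : ℝ) : ((ℝ × ℝ) × ℝ) →ₗ[ℝ] ((ℝ × ℝ) × ℝ) :=
  (rot c s).prodMap LinearMap.id

theorem rot3_apply (c s : ℝ) (x : (ℝ × ℝ) × ℝ) : rot3 c s x = (rot c s x.1, x.2) := rfl

theorem det_rot3 (c s : ℝ) : LinearMap.det (rot3 c s) = c ^ 2 + s ^ 2 := by
  unfold rot3
  rw [LinearMap.det_prodMap, det_rot, LinearMap.det_id, mul_one]

theorem fst_image_rot3 (c s : ℝ) (K : Set ((ℝ × ℝ) × ℝ)) :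
    Prod.fst '' (rot3 c s '' K) = rot c s '' (Prod.fst '' K) := by
  rw [image_image, image_image]
  rfl

theorem fib_rot3 {c s : ℝ} (h : c ^ 2 + s ^ 2 = 1) (K : Set ((ℝ × ℝ) × ℝ)) (y : ℝ × ℝ) :
    fib (rot3 c s '' K) (rot c s y) = fib K y := by
  unfold fib
  congr 2
  ext z
  constructor
  · rintro ⟨x, hx, hxe⟩
    rw [rot3_apply] at hxe
    have h1 : rot c s x.1 = rot c s y := congrArg Prod.fst hxe
    have h2 : x.2 = z := congrArg Prod.snd hxe
    have h3 : x.1 = y := rot_injective h h1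
    have h4 : x = (y, z) := Prod.ext h3 h2
    show (y, z) ∈ K
    rw [← h4]
    exact hx
  · intro hz
    exact ⟨(y, z), hz, rfl⟩

theorem key_general (hK : Convex ℝ K) (hc : IsCompact K) (hs : ∀ x ∈ K, -x ∈ K) {y : ℝ × ℝ} {g : ℝ}
    (hg0 : 0 ≤ g) (hy : y ∈ Prod.fst '' K)
    (hgb : ∀ b : ℝ, b • y ∈ Prod.fst '' K → g * b ≤ 1) :
    ENNReal.ofReal (fib K y * (2 + g) / 6) * volume (Prod.fst '' K) ≤ volume K := by
  by_cases hy0 : y = 0
  · subst hy0
    have hg : g = 0 := by
      by_contra hne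
      have hgpos : 0 < g := lt_of_le_of_ne hg0 (Ne.symm hne)
      have h1 := hgb (2 / g) (by rw [smul_zero]; exact hy)
      rw [mul_div_cancel₀ _ hne] at h1
      linarith
    subst hg
    have hy' : ((0 : ℝ), (0 : ℝ)) ∈ Prod.fst '' K := hy
    exact key_special hK hc hs le_rfl le_rfl hy' (fun b _ => by simp)
  · set n : ℝ := √(y.1 ^ 2 + y.2 ^ 2) with hn
    have hsq : 0 < y.1 ^ 2 + y.2 ^ 2 := by
      by_contra hle
      push Not at hle
      have h1 : y.1 = 0 := by nlinarith [sq_nonneg y.1, sq_nonneg y.2]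
      have h2 : y.2 = 0 := by nlinarith [sq_nonneg y.1, sq_nonneg y.2]
      exact hy0 (Prod.ext h1 h2)
    have hnpos : 0 < n := Real.sqrt_pos.mpr hsq
    have hn2 : n ^ 2 = y.1 ^ 2 + y.2 ^ 2 := Real.sq_sqrt hsq.le
    set c : ℝ := y.2 / n with hcdef
    set s : ℝ := y.1 / n with hsdef
    have hcs : c ^ 2 + s ^ 2 = 1 := by
      rw [hcdef, hsdef, div_pow, div_pow, ← add_div, hn2, add_comm, div_self hsq.ne']
    have hroty : rot c s y = ((0 : ℝ), n) := by
      rw [rot_apply]
      ext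
      · simp only [hcdef, hsdef]
        ring
      · simp only [hcdef, hsdef]
        have : y.1 / n * y.1 + y.2 / n * y.2 = (y.1 ^ 2 + y.2 ^ 2) / n := by ring
        rw [this, ← hn2]
        field_simp
    set K' := rot3 c s '' K with hK'
    have hK'conv : Convex ℝ K' := hK.linear_image (rot3 c s)
    have hK'comp : IsCompact K' := hc.image (LinearMap.continuous_of_finiteDimensional _)
    have hK'symm : ∀ x ∈ K', -x ∈ K' := by
      rintro _ ⟨x, hx, rfl⟩
      exact ⟨-x, hs x hx, map_neg _ _⟩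
    have hshadow : Prod.fst '' K' = rot c s '' (Prod.fst '' K) := fst_image_rot3 c s K
    have hy' : ((0 : ℝ), n) ∈ Prod.fst '' K' := by
      rw [hshadow, ← hroty]
      exact mem_image_of_mem _ hy
    have hgb' : ∀ b : ℝ, ((0 : ℝ), b) ∈ Prod.fst '' K' → g * b ≤ n := by
      intro b hb
      rw [hshadow] at hb
      obtain ⟨x, hx, hxe⟩ := hb
      have h1 : rot c s ((b / n) • y) = ((0 : ℝ), b) := by
        rw [map_smul, hroty]
        ext
        · simp
        · simp only [Prod.smul_mk, smul_eq_mul]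
          field_simp
      have h2 : x = (b / n) • y := rot_injective hcs (hxe.trans h1.symm)
      have h3 := hgb (b / n) (h2 ▸ hx)
      rw [← mul_div_assoc, div_le_one hnpos] at h3
      exact h3
    have hkey := key_special hK'conv hK'comp hK'symm hnpos.le hg0 hy' hgb'
    have hfib : fib K' ((0 : ℝ), n) = fib K y := by
      rw [← hroty]
      exact fib_rot3 hcs K y
    have hvol1 : volume (Prod.fst '' K') = volume (Prod.fst '' K) := by
      rw [hshadow, Measure.addHaar_image_linearMap, det_rot, hcs]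
      simp
    have hvol2 : volume K' = volume K := by
      have hHaar : (volume : Measure ((ℝ × ℝ) × ℝ)).IsAddHaarMeasure := by
        rw [Measure.volume_eq_prod]
        infer_instance
      rw [hK', Measure.addHaar_image_linearMap, det_rot3, hcs]
      simp
    rw [hfib, hvol1, hvol2] at hkey
    exact hkey

end Vale.Agent.Lib.P243.Symm
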