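import Mathlib
import Vale.Agent.Lib.P243.Cap.Fiber

/-!
P243 (C), step D1: the X-ray of the density `1 + 2 gauge K` along a vertical chord.

The fibre `{z | (y,z) ∈ K}` is a compact interval `[α, β] ∋ z1`, `f z = gauge K (y,z)` is convex and
continuous, `f α, f β ≤ 1`.  On `[α, z1]` and `[z1, β]` compare `f` with the linear interpolants:
`∫_α^β f ≤ (β - α) (1 + f z1) / 2`.
-/

namespace Vale.Agent.Lib.P243.Symm

open MeasureTheory Set Vale.Agent.Lib.P243.Cap

/-- The integral of `1 + 2 gauge K` over the vertical chord of `K` over `y`. -/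
noncomputable def xray (K : Set ((ℝ × ℝ) × ℝ)) (y : ℝ × ℝ) : ENNReal :=
  ∫⁻ z in {z : ℝ | (y, z) ∈ K}, ENNReal.ofReal (1 + 2 * gauge K (y, z))

variable {K : Set ((ℝ × ℝ) × ℝ)}

theorem xray_eq_zero_of_notMem {y : ℝ × ℝ} (hy : y ∉ Prod.fst '' K) : xray K y = 0 := by
  have : {z : ℝ | (y, z) ∈ K} = ∅ := by
    ext z
    simp only [mem_ofPred_eq, mem_empty_iff_false, iff_false]
    intro hz
    exact hy ⟨(y, z), hz, rfl⟩
  unfold xray
  rw [this]
  simp

/-- A function below the linear interpolant has integral below the trapezoid. -/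
theorem integral_le_trapezoid (F : ℝ → ℝ) (hF : Continuous F) (a b A B : ℝ) (hab : a ≤ b)
    (h : ∀ s ∈ Icc (0 : ℝ) 1, F (a + (b - a) * s) ≤ (1 - s) * A + s * B) :
    ∫ z in a..b, F z ≤ (b - a) * ((A + B) / 2) := by
  have h1 := intervalIntegral.mul_integral_comp_add_mul (a := (0 : ℝ)) (b := 1) (f := F) (b - a) a
  have e0 : a + (b - a) * 0 = a := by ring
  have e1 : a + (b - a) * 1 = b := by ring
  rw [e0, e1] at h1
  rw [← h1]
  refine mul_le_mul_of_nonneg_left ?_ (by linarith)
  have h2 : ∫ s in (0 : ℝ)..1, ((1 - s) * A + s * B) = (A + B) / 2 := by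
    have : ∀ s : ℝ, (1 - s) * A + s * B = A + (B - A) * s := fun s => by ring
    simp only [this]
    rw [intervalIntegral.integral_add (by simp) (by
      exact (Continuous.intervalIntegrable (by fun_prop) _ _)),
      intervalIntegral.integral_const_mul, integral_id]
    simp
    ring
  rw [← h2]
  refine intervalIntegral.integral_mono_on zero_le_one
    (Continuous.intervalIntegrable (by fun_prop) _ _)
    (Continuous.intervalIntegrable (by fun_prop) _ _) h

theorem xray_le (hK : Convex ℝ K) (hc : IsCompact K) (h0 : K ∈ nhds (0 : (ℝ × ℝ) × ℝ))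
    {y : ℝ × ℝ} {z1 : ℝ} (h1 : (y, z1) ∈ K) :
    xray K y ≤ ENNReal.ofReal (fib K y * (2 + gauge K (y, z1))) := by
  have hcont : Continuous (gauge K) := continuous_gauge hK h0
  have habs : Absorbent ℝ K := absorbent_nhds_zero h0
  set I : Set ℝ := {z : ℝ | (y, z) ∈ K} with hI
  have hemb : Continuous (fun z : ℝ => ((y, z) : (ℝ × ℝ) × ℝ)) := by fun_prop
  have hIclosed : IsClosed I := hc.isClosed.preimage hemb
  have hIsub : I ⊆ Prod.snd '' K := fun z hz => ⟨(y, z), hz, rfl⟩
  have hIc : IsCompact I := (hc.image continuous_snd).of_isClosed_subset hIclosed hIsub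
  have hIconv : Convex ℝ I := by
    intro a ha b hb s t hs ht hst
    have := hK ha hb hs ht hst
    have e : s • ((y, a) : (ℝ × ℝ) × ℝ) + t • ((y, b) : (ℝ × ℝ) × ℝ) = (y, s • a + t • b) := by
      ext
      · simp only [Prod.smul_mk, Prod.mk_add_mk, Prod.fst_add, Prod.smul_fst, smul_eq_mul]
        rw [← add_mul, hst, one_mul]
      · simp only [Prod.smul_mk, Prod.mk_add_mk, Prod.snd_add, Prod.smul_snd, smul_eq_mul]
        rw [← add_mul, hst, one_mul]
      · simp
    rw [e] at this
    exact this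
  have hIne : I.Nonempty := ⟨z1, h1⟩
  have hIconn : IsConnected I := ⟨hIne, hIconv.isPreconnected⟩
  have hIcc : I = Icc (sInf I) (sSup I) := eq_Icc_of_connected_compact hIconn hIc
  set α : ℝ := sInf I with hα
  set β : ℝ := sSup I with hβ
  have hz1 : z1 ∈ Icc α β := by rw [← hIcc]; exact h1
  have hαβ : α ≤ β := hz1.1.trans hz1.2
  have hαI : (y, α) ∈ K := by
    have : α ∈ I := by rw [hIcc]; exact left_mem_Icc.mpr hαβ
    exact this
  have hβI : (y, β) ∈ K := by
    have : β ∈ I := by rw [hIcc]; exact right_mem_Icc.mpr hαβ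
    exact this
  have hfib : fib K y = β - α := by
    unfold fib
    change (volume I).toReal = _
    rw [hIcc, Real.volume_Icc, ENNReal.toReal_ofReal (by linarith)]
  set c : ℝ := gauge K (y, z1) with hcdef
  set F : ℝ → ℝ := fun z => 1 + 2 * gauge K (y, z) with hF
  have hFcont : Continuous F := by
    have : Continuous (fun z : ℝ => gauge K (y, z)) := hcont.comp hemb
    fun_prop
  have hF0 : ∀ z, 0 ≤ F z := fun z => by
    have := gauge_nonneg (s := K) ((y, z) : (ℝ × ℝ) × ℝ)
    simp only [hF]; linarith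
  -- convexity along the chord
  have hconv : ∀ a b s : ℝ, s ∈ Icc (0 : ℝ) 1 →
      gauge K (y, a + (b - a) * s) ≤ (1 - s) * gauge K (y, a) + s * gauge K (y, b) := by
    intro a b s hs
    have e : ((y, a + (b - a) * s) : (ℝ × ℝ) × ℝ)
        = (1 - s) • ((y, a) : (ℝ × ℝ) × ℝ) + s • ((y, b) : (ℝ × ℝ) × ℝ) := by
      ext
      · simp only [Prod.smul_mk, Prod.mk_add_mk, Prod.fst_add, Prod.smul_fst, smul_eq_mul]
        ring
      · simp only [Prod.smul_mk, Prod.mk_add_mk, Prod.snd_add, Prod.smul_snd, smul_eq_mul]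
        ring
      · simp only [Prod.smul_mk, Prod.mk_add_mk, smul_eq_mul]
        ring
    rw [e]
    refine (gauge_add_le hK habs _ _).trans ?_
    rw [gauge_smul_of_nonneg (by linarith [hs.2]), gauge_smul_of_nonneg hs.1, smul_eq_mul,
      smul_eq_mul]
  have gα : gauge K (y, α) ≤ 1 := gauge_le_one_of_mem hαI
  have gβ : gauge K (y, β) ≤ 1 := gauge_le_one_of_mem hβI
  have p1 : ∫ z in α..z1, F z ≤ (z1 - α) * ((3 + (1 + 2 * c)) / 2) := by
    refine integral_le_trapezoid F hFcont α z1 3 (1 + 2 * c) hz1.1 fun s hs => ?_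
    have := hconv α z1 s hs
    have h3 : (1 - s) * gauge K (y, α) ≤ (1 - s) * 1 :=
      mul_le_mul_of_nonneg_left gα (by linarith [hs.2])
    simp only [hF]
    nlinarith
  have p2 : ∫ z in z1..β, F z ≤ (β - z1) * (((1 + 2 * c) + 3) / 2) := by
    refine integral_le_trapezoid F hFcont z1 β (1 + 2 * c) 3 hz1.2 fun s hs => ?_
    have := hconv z1 β s hs
    have h3 : s * gauge K (y, β) ≤ s * 1 := mul_le_mul_of_nonneg_left gβ hs.1
    simp only [hF]
    nlinarith
  have ptot : ∫ z in α..β, F z ≤ (β - α) * (2 + c) := by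
    rw [← intervalIntegral.integral_add_adjacent_intervals
      (hFcont.intervalIntegrable α z1) (hFcont.intervalIntegrable z1 β)]
    nlinarith
  unfold xray
  change ∫⁻ z in I, ENNReal.ofReal (F z) ≤ _
  rw [hIcc, ← ofReal_integral_eq_lintegral_ofReal hFcont.integrableOn_Icc
    (Filter.Eventually.of_forall hF0), hfib]
  refine ENNReal.ofReal_le_ofReal ?_
  rw [integral_Icc_eq_integral_Ioc, ← intervalIntegral.integral_of_le hαβ]
  exact ptot

end Vale.Agent.Lib.P243.Symm
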