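import Mathlib
import Vale.Agent.Lib.P243.Symm.Xray
import Vale.Agent.Lib.P243.Symm.KeyGeneral

/-!
P243 (C), step D5: every X-ray of `1 + 2 gauge K` is at most `6 vol K / area P`.

For `y ∈ P` let `z1` minimise the continuous function `z ↦ gauge K (y,z)` on the compact nonempty fibre and
`g = gauge K (y,z1) ∈ [0,1]`.  `xray_le` gives `xray K y ≤ ℓ (2+g)`.  For `key_general` check
`b • y ∈ P → g b ≤ 1`: trivial for `b ≤ 0`; for `b > 0` take `(b • y, z) ∈ K`; the point `(y, z/b)` has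
gauge `≤ 1/b`; if `1/b ≤ 1` it lies in `K`, so `g ≤ 1/b` by minimality; otherwise `g ≤ 1 < 1/b`.
-/

namespace Vale.Agent.Lib.P243.Symm

open MeasureTheory Set Vale.Agent.Lib.P243.Cap

variable {K : Set ((ℝ × ℝ) × ℝ)}

theorem xray_bound (hK : Convex ℝ K) (hc : IsCompact K) (h0 : K ∈ nhds (0 : (ℝ × ℝ) × ℝ))
    (hs : ∀ x ∈ K, -x ∈ K) (y : ℝ × ℝ) :
    xray K y * volume (Prod.fst '' K) ≤ 6 * volume K := by
  by_cases hy : y ∈ Prod.fst '' K
  swap
  · rw [xray_eq_zero_of_notMem hy, zero_mul]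
    exact zero_le
  have hzero : (0 : (ℝ × ℝ) × ℝ) ∈ K := mem_of_mem_nhds h0
  have hemb : Continuous (fun z : ℝ => ((y, z) : (ℝ × ℝ) × ℝ)) := by fun_prop
  -- the fibre is compact and nonempty
  have hFc : IsCompact {z : ℝ | (y, z) ∈ K} := by
    have hcl : IsClosed {z : ℝ | (y, z) ∈ K} := hc.isClosed.preimage hemb
    exact Metric.isCompact_of_isClosed_isBounded hcl (isBounded_chord hc y)
  have hFne : {z : ℝ | (y, z) ∈ K}.Nonempty := by
    obtain ⟨⟨y', z⟩, hp, rfl⟩ := hy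
    exact ⟨z, hp⟩
  have hgc : Continuous (gauge K) := continuous_gauge hK h0
  obtain ⟨z1, hz1, hmin⟩ := hFc.exists_isMinOn hFne (hgc.comp hemb).continuousOn
  set g : ℝ := gauge K (y, z1) with hg
  have hg0 : 0 ≤ g := gauge_nonneg _
  have hg1 : g ≤ 1 := gauge_le_one_of_mem hz1
  have hx := xray_le hK hc h0 hz1
  have hgb : ∀ b : ℝ, b • y ∈ Prod.fst '' K → g * b ≤ 1 := by
    intro b hb
    rcases le_or_gt b 0 with hb0 | hb0
    · have := mul_nonpos_of_nonneg_of_nonpos hg0 hb0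
      linarith
    rcases le_or_gt 1 b with hb1 | hb1
    · obtain ⟨⟨y', z⟩, hp, hy'⟩ := hb
      simp only at hy'
      subst hy'
      have hbinv0 : 0 ≤ b⁻¹ := by positivity
      have hbinv1 : b⁻¹ ≤ 1 := inv_le_one_of_one_le₀ hb1
      have hq : b⁻¹ • ((b • y, z) : (ℝ × ℝ) × ℝ) ∈ K :=
        hK.smul_mem_of_zero_mem hzero hp ⟨hbinv0, hbinv1⟩
      have e : b⁻¹ • ((b • y, z) : (ℝ × ℝ) × ℝ) = (y, b⁻¹ * z) := by
        rw [Prod.smul_mk, smul_smul, inv_mul_cancel₀ hb0.ne', one_smul, smul_eq_mul]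
      have hq' : (y, b⁻¹ * z) ∈ K := by rw [← e]; exact hq
      have h1 : g ≤ gauge K (y, b⁻¹ * z) := hmin hq'
      have h2 : gauge K (y, b⁻¹ * z) ≤ b⁻¹ := by
        rw [← e, gauge_smul_of_nonneg hbinv0, smul_eq_mul]
        have := gauge_le_one_of_mem hp
        nlinarith
      have h3 : g ≤ b⁻¹ := h1.trans h2
      calc g * b ≤ b⁻¹ * b := mul_le_mul_of_nonneg_right h3 hb0.le
        _ = 1 := inv_mul_cancel₀ hb0.ne'
    · nlinarith
  have hk := key_general hK hc hs hg0 hy hgb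
  have e6 : ENNReal.ofReal (fib K y * (2 + g)) = 6 * ENNReal.ofReal (fib K y * (2 + g) / 6) := by
    rw [show (6 : ENNReal) = ENNReal.ofReal 6 by simp, ← ENNReal.ofReal_mul (by norm_num)]
    congr 1
    ring
  calc xray K y * volume (Prod.fst '' K)
      ≤ ENNReal.ofReal (fib K y * (2 + g)) * volume (Prod.fst '' K) := by gcongr
    _ = 6 * (ENNReal.ofReal (fib K y * (2 + g) / 6) * volume (Prod.fst '' K)) := by
        rw [e6, mul_assoc]
    _ ≤ 6 * volume K := by gcongr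

end Vale.Agent.Lib.P243.Symm
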