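import Mathlib
import Vale.Agent.Lib.P243.Symm.XrayBound

/-!
P243 (C), step D6: weighted capture lemma in coordinates (Fubini + `xray_bound`).
-/

namespace Vale.Agent.Lib.P243.Symm

open MeasureTheory Set Vale.Agent.Lib.P243.Cap

variable {K : Set ((ℝ × ℝ) × ℝ)}

theorem lintegral_inter_cyl (hK : Convex ℝ K) (hc : IsCompact K) (h0 : K ∈ nhds (0 : (ℝ × ℝ) × ℝ))
    {B : Set (ℝ × ℝ)} (hB : MeasurableSet B) :
    ∫⁻ x in K ∩ Prod.fst ⁻¹' B, ENNReal.ofReal (1 + 2 * gauge K x) =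
      ∫⁻ y in B ∩ Prod.fst '' K, xray K y := by
  have hKm : MeasurableSet K := hc.isClosed.measurableSet
  have hm : MeasurableSet (K ∩ Prod.fst ⁻¹' B) := hKm.inter (measurable_fst hB)
  have hP : MeasurableSet (Prod.fst '' K) := measurableSet_shadow hc
  have hg : Continuous (gauge K) := continuous_gauge hK h0
  have hF : Measurable (fun x : (ℝ × ℝ) × ℝ => ENNReal.ofReal (1 + 2 * gauge K x)) :=
    (by fun_prop : Continuous fun x : (ℝ × ℝ) × ℝ => 1 + 2 * gauge K x).measurable.ennreal_ofReal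
  rw [← lintegral_indicator hm, ← lintegral_indicator (hB.inter hP), Measure.volume_eq_prod,
    lintegral_prod _ (hF.indicator hm).aemeasurable]
  refine lintegral_congr fun y => ?_
  have hch : MeasurableSet {z : ℝ | (y, z) ∈ K} := measurable_prodMk_left hKm
  by_cases hy : y ∈ B
  · have e1 : ∀ z : ℝ, (K ∩ Prod.fst ⁻¹' B).indicator
        (fun x : (ℝ × ℝ) × ℝ => ENNReal.ofReal (1 + 2 * gauge K x)) (y, z)
        = {z : ℝ | (y, z) ∈ K}.indicator
          (fun z : ℝ => ENNReal.ofReal (1 + 2 * gauge K (y, z))) z := by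
      intro z
      by_cases hz : (y, z) ∈ K
      · rw [indicator_of_mem (show (y, z) ∈ K ∩ Prod.fst ⁻¹' B from ⟨hz, hy⟩),
          indicator_of_mem (show z ∈ {z : ℝ | (y, z) ∈ K} from hz)]
      · rw [indicator_of_notMem (fun h : (y, z) ∈ K ∩ Prod.fst ⁻¹' B => hz h.1),
          indicator_of_notMem (show z ∉ {z : ℝ | (y, z) ∈ K} from hz)]
    simp_rw [e1]
    rw [lintegral_indicator hch]
    by_cases hyP : y ∈ Prod.fst '' K
    · rw [indicator_of_mem (show y ∈ B ∩ Prod.fst '' K from ⟨hy, hyP⟩)]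
      rfl
    · rw [indicator_of_notMem (fun h : y ∈ B ∩ Prod.fst '' K => hyP h.2)]
      exact xray_eq_zero_of_notMem hyP
  · rw [indicator_of_notMem (fun h : y ∈ B ∩ Prod.fst '' K => hy h.1)]
    have e1 : ∀ z : ℝ, (K ∩ Prod.fst ⁻¹' B).indicator
        (fun x : (ℝ × ℝ) × ℝ => ENNReal.ofReal (1 + 2 * gauge K x)) (y, z) = 0 := by
      intro z
      exact indicator_of_notMem (fun h : (y, z) ∈ K ∩ Prod.fst ⁻¹' B => hy h.2) _
    simp_rw [e1]
    simp

theorem wcapture_coord (hK : Convex ℝ K) (hc : IsCompact K) (h0 : K ∈ nhds (0 : (ℝ × ℝ) × ℝ))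
    (hs : ∀ x ∈ K, -x ∈ K) {B : Set (ℝ × ℝ)} (hB : MeasurableSet B) :
    (∫⁻ x in K ∩ Prod.fst ⁻¹' B, ENNReal.ofReal (1 + 2 * gauge K x)) * volume (Prod.fst '' K) ≤
      6 * volume K * volume (B ∩ Prod.fst '' K) := by
  have hPfin : volume (Prod.fst '' K) ≠ ⊤ := (hc.image continuous_fst).measure_lt_top.ne
  rw [lintegral_inter_cyl hK hc h0 hB, ← lintegral_mul_const' _ _ hPfin]
  calc ∫⁻ y in B ∩ Prod.fst '' K, xray K y * volume (Prod.fst '' K)
      ≤ ∫⁻ _y in B ∩ Prod.fst '' K, 6 * volume K :=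
        lintegral_mono fun y => xray_bound hK hc h0 hs y
    _ = 6 * volume K * volume (B ∩ Prod.fst '' K) := by
        rw [setLIntegral_const]

end Vale.Agent.Lib.P243.Symm
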