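import Mathlib
import Vale.Agent.Lib.P243.Defs
import Vale.Agent.Lib.P243.Bridge
import Vale.Agent.Lib.P243.Symm.WCaptureCoord

/-!
P243 (C), step D7: transfer of the weighted capture lemma to Euclidean 3-space, as in
`Cap/CaptureSpace.lean`: a linear equivalence `Φ : Space ≃ (ℝ × ℝ) × ℝ` with `(Φ u).1 = 0`, the induced
`ψ : Plane u ≃ ℝ × ℝ`; `gauge (Φ '' K) (Φ x) = gauge K x`; `Φ`, `ψ` scale Lebesgue measure (and hence
lintegrals) by constants which cancel.  For a non-measurable base use `toMeasurable`.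
-/

namespace Vale.Agent.Lib.P243.Symm

open MeasureTheory Set Vale.Agent.Lib.P243
open scoped Pointwise

/-- A linear equivalence of space with coordinates whose first component kills exactly `ℝ u`. -/
theorem exists_coords (u : E3) (hu : u ≠ 0) :
    ∃ Φ : E3 ≃L[ℝ] (ℝ × ℝ) × ℝ, (Φ u).1 = 0 ∧ ∀ p, (Φ p).1 = 0 → p ∈ (ℝ ∙ u) := by
  have hli1 : LinearIndependent ℝ ![u] := by
    have := LinearIndependent.of_subsingleton (R := ℝ) (v := ![u]) 0 (by simpa using hu)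
    exact this
  obtain ⟨w1, hw1⟩ := exists_linearIndependent_cons_of_lt_finrank hli1 (by simp)
  obtain ⟨w0, hw0⟩ := exists_linearIndependent_cons_of_lt_finrank hw1 (by simp)
  set b := basisOfLinearIndependentOfCardEqFinrank hw0 (by simp) with hb
  have hb2 : b 2 = u := by rw [hb, coe_basisOfLinearIndependentOfCardEqFinrank]; rfl
  have hcoord : ∀ i j : Fin 3, b.coord i (b j) = if j = i then 1 else 0 := by
    intro i j
    rw [Module.Basis.coord_apply, Module.Basis.repr_self, Finsupp.single_apply]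
  have hexp : ∀ p : E3, p = b.coord 0 p • b 0 + b.coord 1 p • b 1 + b.coord 2 p • b 2 := by
    intro p
    have := b.sum_repr p
    rw [Fin.sum_univ_three] at this
    exact this.symm
  set Ψ : E3 →ₗ[ℝ] (ℝ × ℝ) × ℝ := ((b.coord 0).prod (b.coord 1)).prod (b.coord 2) with hΨ
  have hinj : Function.Injective Ψ := by
    rw [injective_iff_map_eq_zero]
    intro p hp
    have h0 : b.coord 0 p = 0 := congrArg (fun z : (ℝ × ℝ) × ℝ => z.1.1) hp
    have h1 : b.coord 1 p = 0 := congrArg (fun z : (ℝ × ℝ) × ℝ => z.1.2) hp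
    have h2 : b.coord 2 p = 0 := congrArg (fun z : (ℝ × ℝ) × ℝ => z.2) hp
    rw [hexp p, h0, h1, h2]
    simp
  have hsurj : Function.Surjective Ψ := by
    rintro ⟨⟨z0, z1⟩, z2⟩
    refine ⟨z0 • b 0 + z1 • b 1 + z2 • b 2, ?_⟩
    rw [hΨ]
    simp
  refine ⟨(LinearEquiv.ofBijective Ψ ⟨hinj, hsurj⟩).toContinuousLinearEquiv, ?_, ?_⟩
  · show (Ψ u).1 = 0
    rw [← hb2, hΨ]
    simp [hcoord]
  · intro p hp
    have hp' : (Ψ p).1 = 0 := hp
    have h0 : b.coord 0 p = 0 := congrArg Prod.fst hp'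
    have h1 : b.coord 1 p = 0 := congrArg Prod.snd hp'
    rw [hexp p, h0, h1, hb2]
    simp only [zero_smul, zero_add]
    exact Submodule.smul_mem _ _ (Submodule.mem_span_singleton_self u)

/-- `Φ` scales Lebesgue integrals by a constant. -/
theorem exists_scale3 (Φ : E3 ≃L[ℝ] (ℝ × ℝ) × ℝ) :
    ∃ c : ENNReal, c ≠ 0 ∧ c ≠ ⊤ ∧ ∀ (A : Set E3) (g : (ℝ × ℝ) × ℝ → ENNReal),
      ∫⁻ y in Φ '' A, g y = c * ∫⁻ x in A, g (Φ x) := by
  have hHaar : (volume : Measure ((ℝ × ℝ) × ℝ)).IsAddHaarMeasure := by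
    show ((volume : Measure (ℝ × ℝ)).prod (volume : Measure ℝ)).IsAddHaarMeasure
    infer_instance
  set μ' : Measure E3 := Measure.map Φ.symm volume with hμ'
  have : μ'.IsAddHaarMeasure := ContinuousLinearEquiv.isAddHaarMeasure_map Φ.symm volume
  have h := Measure.isAddLeftInvariant_eq_smul μ' (volume : Measure E3)
  refine ⟨(Measure.addHaarScalarFactor μ' (volume : Measure E3) : ENNReal), ?_, ENNReal.coe_ne_top, ?_⟩
  · have := Measure.addHaarScalarFactor_pos_of_isAddHaarMeasure μ' (volume : Measure E3)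
    exact_mod_cast this.ne'
  · intro A g
    set e : E3 ≃ᵐ (ℝ × ℝ) × ℝ := Φ.toHomeomorph.toMeasurableEquiv with he
    have hvol : (volume : Measure ((ℝ × ℝ) × ℝ)) = Measure.map e μ' := by
      rw [hμ']
      have : Measure.map Φ.symm (volume : Measure ((ℝ × ℝ) × ℝ)) = Measure.map e.symm volume := rfl
      rw [this, e.map_map_symm]
    have hpre : e ⁻¹' (Φ '' A) = A := Φ.injective.preimage_image A
    calc ∫⁻ y in Φ '' A, g y = ∫⁻ y in Φ '' A, g y ∂(Measure.map e μ') := by rw [← hvol]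
      _ = ∫⁻ x in A, g (e x) ∂μ' := by
          rw [e.restrict_map, lintegral_map_equiv, hpre]
      _ = ∫⁻ x in A, g (Φ x) ∂(Measure.addHaarScalarFactor μ' volume • (volume : Measure E3)) := by
          rw [← h]; rfl
      _ = _ := by
          rw [Measure.restrict_smul, lintegral_smul_measure]
          rfl

/-- The gauge is invariant under a linear equivalence. -/
theorem gauge_image (Φ : E3 ≃L[ℝ] (ℝ × ℝ) × ℝ) (K : Set E3) (x : E3) :
    gauge (Φ '' K) (Φ x) = gauge K x := by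
  unfold gauge
  congr 1
  ext r
  simp only [Set.mem_ofPred_eq]
  refine and_congr_right fun _ => ?_
  have : r • (Φ '' K) = Φ '' (r • K) := (image_smul_set Φ r K).symm
  rw [this]
  exact Φ.injective.mem_set_image

/-- The weighted capture lemma with the Mathlib formulation of the projection. -/
theorem wcapture_proj {K : Set E3} (hK : Convex ℝ K) (hc : IsCompact K)
    (h0 : K ∈ nhds (0 : E3)) (hs : ∀ x ∈ K, -x ∈ K) (u : E3) (hu : u ≠ 0)
    {B : Set ↥(ℝ ∙ u)ᗮ} (hB : MeasurableSet B) :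
    (∫⁻ x in K ∩ (ℝ ∙ u)ᗮ.orthogonalProjectionOnto ⁻¹' B, ENNReal.ofReal (1 + 2 * gauge K x)) *
        volume ((ℝ ∙ u)ᗮ.orthogonalProjectionOnto '' K) ≤ 6 * volume K * volume B := by
  set π := (ℝ ∙ u)ᗮ.orthogonalProjectionOnto with hπ
  obtain ⟨Φ, hΦu, hΦker⟩ := exists_coords u hu
  set f : E3 →ₗ[ℝ] ℝ × ℝ := (LinearMap.fst ℝ (ℝ × ℝ) ℝ) ∘ₗ (Φ : E3 →ₗ[ℝ] (ℝ × ℝ) × ℝ) with hf
  have hΦfst : ∀ p, (Φ p).1 = f p := fun p => rfl
  obtain ⟨ψ, hψ⟩ := transfer_one u f hΦu hΦker (by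
    intro z
    exact ⟨Φ.symm (z, 0), by rw [← hΦfst, Φ.apply_symm_apply]⟩)
  obtain ⟨c₂, hc₂0, hc₂t, hc₂⟩ := exists_scale ψ
  obtain ⟨c₃, hc₃0, hc₃t, hc₃⟩ := exists_scale3 Φ
  have hvol3 : ∀ A : Set E3, volume (Φ '' A) = c₃ * volume A := by
    intro A
    have := hc₃ A (fun _ => 1)
    simpa using this
  have him : Prod.fst '' (Φ '' K) = ψ '' (π '' K) := by
    rw [image_image, image_image]
    exact image_congr (fun p _ => by rw [hΦfst, hψ])
  have hmeas : MeasurableSet (ψ '' B) :=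
    ψ.toHomeomorph.toMeasurableEquiv.measurableSet_image.mpr hB
  have hKc : Convex ℝ (Φ '' K) := hK.linear_image (Φ : E3 →ₗ[ℝ] (ℝ × ℝ) × ℝ)
  have hK0 : Φ '' K ∈ nhds (0 : (ℝ × ℝ) × ℝ) := by
    have := Φ.toHomeomorph.isOpenMap.image_mem_nhds h0
    simpa using this
  have hKs : ∀ y ∈ Φ '' K, -y ∈ Φ '' K := by
    rintro _ ⟨x, hx, rfl⟩
    exact ⟨-x, hs x hx, map_neg Φ x⟩
  have hmain := wcapture_coord (K := Φ '' K) hKc (hc.image Φ.continuous) hK0 hKs hmeas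
  have hset : Φ '' K ∩ Prod.fst ⁻¹' (ψ '' B) = Φ '' (K ∩ π ⁻¹' B) := by
    ext y
    constructor
    · rintro ⟨⟨p, hpK, rfl⟩, hy⟩
      refine ⟨p, ⟨hpK, ?_⟩, rfl⟩
      have hy' : (Φ p).1 ∈ ψ '' B := hy
      rw [hΦfst, ← hψ] at hy'
      exact ψ.injective.mem_set_image.mp hy'
    · rintro ⟨p, ⟨hpK, hpB⟩, rfl⟩
      refine ⟨mem_image_of_mem _ hpK, ?_⟩
      show (Φ p).1 ∈ ψ '' B
      rw [hΦfst, ← hψ]
      exact mem_image_of_mem _ hpB
  rw [hset, hc₃, him, hc₂, hvol3] at hmain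
  simp only [gauge_image] at hmain
  have hle : volume (ψ '' B ∩ ψ '' (π '' K)) ≤ c₂ * volume B := by
    rw [← hc₂]; exact measure_mono inter_subset_left
  have h1 : (c₃ * c₂) * ((∫⁻ x in K ∩ π ⁻¹' B, ENNReal.ofReal (1 + 2 * gauge K x)) *
      volume (π '' K)) ≤ (c₃ * c₂) * (6 * volume K * volume B) := by
    calc (c₃ * c₂) * ((∫⁻ x in K ∩ π ⁻¹' B, ENNReal.ofReal (1 + 2 * gauge K x)) * volume (π '' K))
        = c₃ * (∫⁻ x in K ∩ π ⁻¹' B, ENNReal.ofReal (1 + 2 * gauge K x)) *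
            (c₂ * volume (π '' K)) := by ring
      _ ≤ 6 * (c₃ * volume K) * volume (ψ '' B ∩ ψ '' (π '' K)) := hmain
      _ ≤ 6 * (c₃ * volume K) * (c₂ * volume B) := by gcongr
      _ = (c₃ * c₂) * (6 * volume K * volume B) := by ring
  exact (ENNReal.mul_le_mul_iff_right (mul_ne_zero hc₃0 hc₂0) (ENNReal.mul_ne_top hc₃t hc₂t)).mp h1

theorem wcapture_space {K : Set Space} (hK : Convex ℝ K) (hc : IsCompact K)
    (h0 : K ∈ nhds (0 : Space)) (hs : ∀ x ∈ K, -x ∈ K) (u : Space) (hu : u ≠ 0) (B : Set (Plane u)) :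
    (∫⁻ x in K ∩ cylinder u B, ENNReal.ofReal (1 + 2 * gauge K x)) * area u (shadow K u) ≤
      6 * volume K * area u B := by
  rw [shadow_eq]
  set Bm : Set ↥(ℝ ∙ u)ᗮ := toMeasurable volume (show Set ↥(ℝ ∙ u)ᗮ from B) with hBm
  have h := wcapture_proj hK hc h0 hs u hu (B := Bm) (measurableSet_toMeasurable _ _)
  rw [hBm, measure_toMeasurable, ← hBm] at h
  refine le_trans ?_ h
  refine mul_le_mul_left (lintegral_mono_set ?_) _
  rintro x ⟨hxK, b, hb, s, rfl⟩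
  refine ⟨hxK, ?_⟩
  show (ℝ ∙ u)ᗮ.orthogonalProjectionOnto (b.val + s • u) ∈ Bm
  have h2 : (ℝ ∙ u)ᗮ.orthogonalProjectionOnto (b.val + s • u) = b := proj_add_smul u b s
  rw [h2]
  exact subset_toMeasurable _ _ hb

end Vale.Agent.Lib.P243.Symm
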