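import Mathlib
import Vale.Agent.Lib.P243.Defs

/-!
P243 (C), step D0: the integral of `1 + 2 gauge K` over `K` is (at least) `5/2 vol K` in dimension 3.

Layer cake: `∫_K gauge K = ∫_0^∞ vol {x ∈ K | t ≤ gauge K x} dt ≥ ∫_0^1 (vol K - vol {gauge K < t}) dt`
and `{gauge K < t} ⊆ t • K` has volume `t^3 vol K` (`Measure.addHaar_smul`), so `∫_K gauge K ≥ 3/4 vol K`.
-/

namespace Vale.Agent.Lib.P243.Symm

open MeasureTheory Set Vale.Agent.Lib.P243
open scoped Pointwise

theorem lintegral_one_sub_cube :
    ∫⁻ t in Ioc (0 : ℝ) 1, ENNReal.ofReal (1 - t ^ 3) = ENNReal.ofReal (3 / 4) := by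
  rw [← ofReal_integral_eq_lintegral_ofReal]
  · congr 1
    rw [← intervalIntegral.integral_of_le zero_le_one]
    have : ∫ x in (0 : ℝ)..1, (1 - x ^ 3) = 1 - 1 / 4 := by
      rw [intervalIntegral.integral_sub (by simp) (by simp)]
      simp [integral_pow]
      norm_num
    rw [this]; norm_num
  · exact (Continuous.integrableOn_Icc (by fun_prop)).mono_set Ioc_subset_Icc_self
  · refine (ae_restrict_iff' measurableSet_Ioc).mpr (Filter.Eventually.of_forall fun t ht => ?_)
    have : t ^ 3 ≤ 1 := pow_le_one₀ ht.1.le ht.2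
    simp only [Pi.zero_apply]
    linarith

theorem lintegral_gauge_ge {K : Set Space} (hK : Convex ℝ K) (hc : IsCompact K)
    (h0 : K ∈ nhds (0 : Space)) :
    ENNReal.ofReal (5 / 2) * volume K ≤ ∫⁻ x in K, ENNReal.ofReal (1 + 2 * gauge K x) := by
  have hcont : Continuous (gauge K) := continuous_gauge hK h0
  have hVfin : volume K ≠ ⊤ := hc.measure_lt_top.ne
  have habs : Absorbent ℝ K := absorbent_nhds_zero h0
  have h0K : (0 : Space) ∈ K := mem_of_mem_nhds h0
  have hKm : MeasurableSet K := hc.measurableSet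
  -- sublevel sets
  have hsub : ∀ t : ℝ, 0 < t → {x | gauge K x < t} ⊆ t • K := by
    intro t ht x hx
    have h1 : gauge K (t⁻¹ • x) < 1 := by
      rw [gauge_smul_of_nonneg (inv_nonneg.mpr ht.le), smul_eq_mul]
      rw [inv_mul_lt_iff₀ ht, mul_one]
      exact hx
    have h2 : t⁻¹ • x ∈ K := setOfPred_gauge_lt_one_subset_self hK h0K habs h1
    refine ⟨t⁻¹ • x, h2, ?_⟩
    simp only
    rw [smul_smul, mul_inv_cancel₀ ht.ne', one_smul]
  have hvol : ∀ t : ℝ, 0 < t → volume (t • K) = ENNReal.ofReal (t ^ 3) * volume K := by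
    intro t ht
    rw [Measure.addHaar_smul]
    simp only [finrank_euclideanSpace, Fintype.card_fin]
    rw [abs_of_pos (by positivity)]
  have hlev : ∀ t ∈ Ioc (0 : ℝ) 1, ENNReal.ofReal (1 - t ^ 3) * volume K
      ≤ (volume.restrict K) {x | t ≤ gauge K x} := by
    intro t ht
    have hm : MeasurableSet {x | t ≤ gauge K x} := (isClosed_le continuous_const hcont).measurableSet
    rw [Measure.restrict_apply hm]
    have hcov : K ⊆ ({x | t ≤ gauge K x} ∩ K) ∪ t • K := by
      intro x hx
      by_cases h : t ≤ gauge K x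
      · exact Or.inl ⟨h, hx⟩
      · exact Or.inr (hsub t ht.1 (not_le.mp h))
    have h1 : volume K ≤ volume ({x | t ≤ gauge K x} ∩ K) + ENNReal.ofReal (t ^ 3) * volume K := by
      calc volume K ≤ volume (({x | t ≤ gauge K x} ∩ K) ∪ t • K) := measure_mono hcov
        _ ≤ volume ({x | t ≤ gauge K x} ∩ K) + volume (t • K) := measure_union_le _ _
        _ = _ := by rw [hvol t ht.1]
    have ht3 : t ^ 3 ≤ 1 := pow_le_one₀ ht.1.le ht.2
    have h2 : volume K = ENNReal.ofReal (1 - t ^ 3) * volume K
        + ENNReal.ofReal (t ^ 3) * volume K := by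
      rw [← add_mul, ← ENNReal.ofReal_add (by linarith) (pow_nonneg ht.1.le 3)]
      simp
    have hfin : ENNReal.ofReal (t ^ 3) * volume K ≠ ⊤ :=
      ENNReal.mul_ne_top ENNReal.ofReal_ne_top hVfin
    refine (ENNReal.add_le_add_iff_right hfin).mp ?_
    calc ENNReal.ofReal (1 - t ^ 3) * volume K + ENNReal.ofReal (t ^ 3) * volume K
        = volume K := h2.symm
      _ ≤ _ := h1
  -- layer cake
  have hcake : ∫⁻ x in K, ENNReal.ofReal (gauge K x)
      = ∫⁻ t in Ioi (0 : ℝ), (volume.restrict K) {x | t ≤ gauge K x} :=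
    lintegral_eq_lintegral_meas_le (volume.restrict K)
      (Filter.Eventually.of_forall fun x => gauge_nonneg x) hcont.measurable.aemeasurable
  have hg : ENNReal.ofReal (3 / 4) * volume K ≤ ∫⁻ x in K, ENNReal.ofReal (gauge K x) := by
    rw [hcake]
    calc ENNReal.ofReal (3 / 4) * volume K
        = ∫⁻ t in Ioc (0 : ℝ) 1, ENNReal.ofReal (1 - t ^ 3) * volume K := by
          rw [lintegral_mul_const _ (by fun_prop), lintegral_one_sub_cube]
      _ ≤ ∫⁻ t in Ioc (0 : ℝ) 1, (volume.restrict K) {x | t ≤ gauge K x} :=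
          setLIntegral_mono' measurableSet_Ioc hlev
      _ ≤ ∫⁻ t in Ioi (0 : ℝ), (volume.restrict K) {x | t ≤ gauge K x} :=
          lintegral_mono_set Ioc_subset_Ioi_self
  have hsplit : ∫⁻ x in K, ENNReal.ofReal (1 + 2 * gauge K x)
      = volume K + 2 * ∫⁻ x in K, ENNReal.ofReal (gauge K x) := by
    have : ∀ x, ENNReal.ofReal (1 + 2 * gauge K x) = 1 + 2 * ENNReal.ofReal (gauge K x) := by
      intro x
      rw [ENNReal.ofReal_add zero_le_one (mul_nonneg zero_le_two (gauge_nonneg x)),
        ENNReal.ofReal_mul zero_le_two]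
      simp
    simp only [this]
    rw [lintegral_add_left measurable_const, lintegral_const_mul _ (by fun_prop)]
    simp
  rw [hsplit]
  calc ENNReal.ofReal (5 / 2) * volume K
      = volume K + 2 * (ENNReal.ofReal (3 / 4) * volume K) := by
        have : ENNReal.ofReal (5 / 2) = 1 + 2 * ENNReal.ofReal (3 / 4) := by
          rw [show (2 : ENNReal) = ENNReal.ofReal 2 by simp, ← ENNReal.ofReal_mul zero_le_two,
            show (1 : ENNReal) = ENNReal.ofReal 1 by simp,
            ← ENNReal.ofReal_add zero_le_one (by norm_num)]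
          norm_num
        rw [this]; ring
    _ ≤ _ := by gcongr

/-- A symmetric convex set with nonempty interior is a neighbourhood of the origin. -/
theorem mem_nhds_zero_of_symm {K : Set Space} (hK : Convex ℝ K) (hi : (interior K).Nonempty)
    (hs : ∀ x ∈ K, -x ∈ K) : K ∈ nhds (0 : Space) := by
  obtain ⟨x, hx⟩ := hi
  have hneg : (Homeomorph.neg Space) ⁻¹' K = K := by
    ext y
    constructor
    · intro hy
      have := hs (-y) hy
      simpa using this
    · intro hy
      exact hs y hy
  have hx' : -x ∈ interior K := by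
    have h1 := (Homeomorph.neg Space).preimage_interior K
    rw [hneg] at h1
    have h2 : x ∈ (Homeomorph.neg Space) ⁻¹' interior K := by rw [h1]; exact hx
    exact h2
  have h0 : (0 : Space) ∈ interior K := by
    have := hK.interior hx hx' (by norm_num : (0 : ℝ) ≤ 1 / 2) (by norm_num : (0 : ℝ) ≤ 1 / 2)
      (by norm_num)
    simpa using this
  exact mem_interior_iff_mem_nhds.mp h0

end Vale.Agent.Lib.P243.Symm
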