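import Mathlib
import Vale.Agent.Lib.P243.Defs
import Vale.Agent.Lib.P243.Bridge
import Vale.Agent.Lib.P243.Symm.GaugeInt
import Vale.Agent.Lib.P243.Symm.WCaptureSpace

/-!
P243 (C): statement of the hand-in `CentrallySymmetric`.
`5/2 vol K ≤ ∫_K ρ ≤ ∑ ∫_{K ∩ C_i} ρ ≤ 6 vol K ∑ area B_i / area shadow_i`.
-/

namespace Vale.Agent.Lib.P243.Symm

open MeasureTheory Set Vale.Agent.Lib.P243

/-- ENNReal arithmetic: from `5/2 V ≤ 6 V S` with `0 < V < ∞` conclude `5/12 ≤ S`. -/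
theorem arith_final {V S : ENNReal} (hV0 : V ≠ 0) (hVt : V ≠ ⊤)
    (h : ENNReal.ofReal (5 / 2) * V ≤ 6 * V * S) : 5 / 12 ≤ S := by
  have h1 : ENNReal.ofReal (5 / 2) * V = V * (5 / 2) := by
    rw [mul_comm]
    congr 1
    rw [ENNReal.ofReal_div_of_pos (by norm_num)]
    norm_num
  have h2 : 6 * V * S = V * (6 * S) := by ring
  rw [h1, h2] at h
  have h3 : (5 / 2 : ENNReal) ≤ 6 * S := (ENNReal.mul_le_mul_iff_right hV0 hVt).1 h
  have h4 : (5 / 12 : ENNReal) = 6⁻¹ * (5 / 2) := by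
    rw [div_eq_mul_inv, div_eq_mul_inv, mul_comm (6 : ENNReal)⁻¹, mul_assoc,
      ← ENNReal.mul_inv (by norm_num) (by norm_num)]
    norm_num
  have h5 : S = 6⁻¹ * (6 * S) := by
    rw [← mul_assoc, ENNReal.inv_mul_cancel (by norm_num) (by norm_num), one_mul]
  rw [h4, h5]
  gcongr

theorem centrally_symmetric (K : Set Space) (hconv : Convex ℝ K) (hcomp : IsCompact K)
    (hint : (interior K).Nonempty) (hsymm : ∀ x ∈ K, -x ∈ K) (m : ℕ) (u : Fin m → Space)
    (hu : ∀ i, ‖u i‖ = 1) (B : ∀ i, Set (Plane (u i))) (hcov : K ⊆ ⋃ i, cylinder (u i) (B i)) :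
    5 / 12 ≤ ∑ i, area (u i) (B i) / area (u i) (shadow K (u i)) := by
  have h0 : K ∈ nhds (0 : Space) := mem_nhds_zero_of_symm hconv hint hsymm
  have hV0 : volume K ≠ 0 :=
    (lt_of_lt_of_le (isOpen_interior.measure_pos volume hint)
      (measure_mono interior_subset)).ne'
  have hVt : volume K ≠ ⊤ := hcomp.measure_lt_top.ne
  have hu0 : ∀ i, u i ≠ 0 := by
    intro i h
    have := hu i
    rw [h, norm_zero] at this
    exact zero_ne_one this
  refine arith_final hV0 hVt ?_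
  have hsub : K ⊆ ⋃ i, K ∩ cylinder (u i) (B i) := by
    intro x hx
    obtain ⟨i, hi⟩ := mem_iUnion.1 (hcov hx)
    exact mem_iUnion.2 ⟨i, hx, hi⟩
  have hone : ∀ i, (∫⁻ x in K ∩ cylinder (u i) (B i), ENNReal.ofReal (1 + 2 * gauge K x)) ≤
      6 * volume K * (area (u i) (B i) / area (u i) (shadow K (u i))) := by
    intro i
    have h := wcapture_space hconv hcomp h0 hsymm (u i) (hu0 i) (B i)
    have hp := (area_shadow_pos hint (u i)).ne'
    have ht := area_shadow_ne_top hcomp (u i)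
    rw [← mul_div_assoc]
    exact (ENNReal.le_div_iff_mul_le (Or.inl hp) (Or.inl ht)).2 h
  calc ENNReal.ofReal (5 / 2) * volume K
      ≤ ∫⁻ x in K, ENNReal.ofReal (1 + 2 * gauge K x) := lintegral_gauge_ge hconv hcomp h0
    _ ≤ ∫⁻ x in ⋃ i, K ∩ cylinder (u i) (B i), ENNReal.ofReal (1 + 2 * gauge K x) :=
        lintegral_mono_set hsub
    _ ≤ ∑' i, ∫⁻ x in K ∩ cylinder (u i) (B i), ENNReal.ofReal (1 + 2 * gauge K x) :=
        lintegral_iUnion_le _ _
    _ = ∑ i, ∫⁻ x in K ∩ cylinder (u i) (B i), ENNReal.ofReal (1 + 2 * gauge K x) :=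
        tsum_fintype _
    _ ≤ ∑ i, 6 * volume K * (area (u i) (B i) / area (u i) (shadow K (u i))) :=
        Finset.sum_le_sum fun i _ => hone i
    _ = 6 * volume K * ∑ i, area (u i) (B i) / area (u i) (shadow K (u i)) :=
        (Finset.mul_sum _ _ _).symm

end Vale.Agent.Lib.P243.Symm
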